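import Vale.Agent.P207.N3.H394.XFam

/-!
# P207, line N3, row P3E (J3): the action of `φ` on the jets of the densities

The theorem `J3_of`, with the expansion of the trace (`TrLead`) as a hypothesis.
-/

open Set Filter Topology Metric MeasureTheory Asymptotics InnerProductSpace
open scoped ContDiff Gradient RealInnerProductSpace

noncomputable section

namespace Vale.Agent.P207.N3.H394

open Jet

/-! ### more on jets -/

lemma jet_const_zero (i j : ℕ) : jet (fun _ : E2 => (0 : ℝ)) i j = 0 :=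
  jet_eq_zero contDiffAt_const (K := i + j + 1) (isBigO_zero _ _) i j (by omega)

/-- the jets of `f ∘ L`, for a function which is smooth at the origin -/
theorem jet_comp_tl' {f : E2 → ℝ} (hf : ContDiffAt ℝ ∞ f 0) (m₁ m₂ β : ℝ) (a₁ a₂ : ℕ) :
    jet (fun q => f (tl m₁ m₂ β q)) a₁ a₂ = ∑ j ∈ Finset.range (a₁ + 1),
      (a₁.choose j : ℝ) * (β ^ j * (m₁ ^ (a₁ - j) * m₂ ^ a₂ * jet f (a₁ - j) (a₂ + j))) := by
  have hOt : OB 1 (tl m₁ m₂ β) := OB.of_differentiableAt
    ((tl_smooth m₁ m₂ β).differentiable (by simp) 0) (tl_at_zero m₁ m₂ β)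
  have h1 : OB (a₁ + a₂ + 1) fun q => f (tl m₁ m₂ β q) - tay (a₁ + a₂ + 1) (jet f) (tl m₁ m₂ β q) :=
    OB.comp (taylor hf (a₁ + a₂ + 1)) hOt
  have hfc : ContDiffAt ℝ ∞ (fun q => f (tl m₁ m₂ β q)) 0 :=
    ContDiffAt.comp (g := f) 0 (by rw [tl_at_zero]; exact hf) (tl_smooth m₁ m₂ β).contDiffAt
  have hgc : ContDiffAt ℝ ∞ (fun q => tay (a₁ + a₂ + 1) (jet f) (tl m₁ m₂ β q)) 0 :=
    ((tay_smooth (a₁ + a₂ + 1) (jet f)).comp (tl_smooth m₁ m₂ β)).contDiffAt
  rw [jet_eq hfc hgc h1 a₁ a₂ (by omega), jet_comp_tl m₁ m₂ β a₁ a₂ (tay_smooth (a₁ + a₂ + 1) (jet f))]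
  refine Finset.sum_congr rfl fun j hj => ?_
  rw [Finset.mem_range] at hj
  rw [jet_tay _ _ _ _ (by omega)]

/-- the jets of `q₀ g (q)` -/
lemma jet_coord_mul (i j : ℕ) : ∀ {g : E2 → ℝ}, ContDiffAt ℝ ∞ g 0 →
    jet (fun q => q 0 * g q) i j = i * jet g (i - 1) j := by
  have hcoord : ContDiff ℝ ∞ fun q : E2 => q 0 := coord_smooth 0
  induction i with
  | zero =>
    induction j with
    | zero =>
      intro g hg
      simp [jet_zero]
    | succ j ih =>
      intro g hg
      have h1 : D2 (fun q => q 0 * g q) =ᶠ[𝓝 0] fun q => q 0 * D2 g q := by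
        filter_upwards [(hg.of_le (m := 1) (by norm_cast)).eventually (by simp)] with q hq
        have h2 := (hasFDerivAt_coord 0 q).mul (hq.differentiableAt one_ne_zero).hasFDerivAt
        change fderiv ℝ ((fun q : E2 => q 0) * g) q e2 = _
        rw [h2.fderiv]
        simp [D2, e2]
      rw [← jet_D2, jet_congr h1, ih (smooth_D2 hg)]
      simp
  | succ i ih =>
    intro g hg
    have h1 : D1 (fun q => q 0 * g q) =ᶠ[𝓝 0] fun q => g q + q 0 * D1 g q := by
      filter_upwards [(hg.of_le (m := 1) (by norm_cast)).eventually (by simp)] with q hq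
      have h2 := (hasFDerivAt_coord 0 q).mul (hq.differentiableAt one_ne_zero).hasFDerivAt
      change fderiv ℝ ((fun q : E2 => q 0) * g) q e1 = _
      rw [h2.fderiv]
      simp [D1, e1]
      ring
    rw [← jet_D1 (hcoord.contDiffAt.mul hg), jet_congr h1,
      H394.jet_add hg (hcoord.contDiffAt.mul (smooth_D1 hg)), ih (smooth_D1 hg)]
    rcases Nat.eq_zero_or_pos i with h0 | h0
    · subst h0
      simp
    · rw [jet_D1 hg, show i - 1 + 1 = i by omega, show i + 1 - 1 = i by omega]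
      push_cast
      ring

/-! ### truncated jets -/

variable {K : ℕ}

/-- all raw jets of the leaf and of the density at `y` -/
def raw (H : Half) (K : ℕ) (y : E2) : Ix (K + 1) ⊕ Ix K → ℝ :=
  Sum.elim (H.T (K + 1) y) (jv K (H.X y))

/-- the jets `T_b`, `|b| ≤ m`, and `X_b`, `|b| < m` -/
def cutZ (m : ℕ) (u : Ix (K + 1) ⊕ Ix K → ℝ) : ZZ K :=
  (low (m + 1) fun b => u (Sum.inl b), low m fun b => u (Sum.inr b))

lemma cutZ_smooth (m : ℕ) : ContDiff ℝ ∞ (cutZ (K := K) m) := by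
  refine ContDiff.prodMk ?_ ?_
  · refine (low_smooth (m + 1)).comp ?_
    rw [contDiff_pi]
    exact fun b => contDiff_apply ℝ ℝ _
  · refine (low_smooth m).comp ?_
    rw [contDiff_pi]
    exact fun b => contDiff_apply ℝ ℝ _

lemma cutZ_zero (m : ℕ) : cutZ (K := K) m 0 = 0 := by
  unfold cutZ
  have h1 : (fun b : Ix (K + 1) => (0 : Ix (K + 1) ⊕ Ix K → ℝ) (Sum.inl b)) = 0 := rfl
  have h2 : (fun b : Ix K => (0 : Ix (K + 1) ⊕ Ix K → ℝ) (Sum.inr b)) = 0 := rfl
  rw [h1, h2, low_zero, low_zero]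
  rfl

lemma cutZ_tendsto (m : ℕ) : Tendsto (cutZ (K := K) m) (𝓝 0) (𝓝 0) := by
  have := (cutZ_smooth (K := K) m).continuous.tendsto 0
  rwa [cutZ_zero] at this

variable (H : Half)

lemma X_at {y : E2} (hy : y ∈ ball (0 : E2) H.r) : ContDiffAt ℝ ∞ (H.X y) 0 :=
  (H.X_smooth y hy).contDiffAt (ball_mem_nhds 0 H.r_pos)

lemma raw_zero : raw H K 0 = 0 := by
  unfold raw
  rw [H.T_zero]
  ext j
  rcases j with b | b
  · rfl
  · change jet (H.X 0) b.1.1 b.1.2 = 0
    have h : H.X 0 =ᶠ[𝓝 0] fun _ => (0 : ℝ) := by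
      filter_upwards [ball_mem_nhds (0 : E2) H.r_pos] with q hq
      exact H.X_zero q hq
    rw [jet_congr h]
    exact jet_const_zero _ _

lemma raw_cont : ContinuousOn (raw H K) (ball 0 H.r) := by
  refine continuousOn_pi.2 fun j => ?_
  rcases j with b | b
  · exact H.continuousOn_jetS _ _
  · have h := continuousOn_jet (S := H.X) (s := ball (0 : E2) H.r) (r := H.r) H.X_smooth
      b.1.1 b.1.2 (H.X_cont (b.1.1 + b.1.2))
    have h2 : ContinuousOn (fun y : E2 => (y, (0 : E2))) (ball 0 H.r) := by fun_prop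
    exact h.comp h2 fun y hy => ⟨hy, mem_ball_self H.r_pos⟩

lemma raw_tendsto : Tendsto (raw H K) (𝓝 0) (𝓝 0) := by
  have h := ((raw_cont (K := K) H).continuousAt (ball_mem_nhds 0 H.r_pos)).tendsto
  rwa [raw_zero] at h

/-- the expansion of the trace of the difference of two curves (helper395) -/
def TrLead (m₁ m₂ c : ℝ) (k : ℕ) : Prop :=
  ∀ᶠ y in 𝓝 (0 : E2), ∀ (m : ℕ), 1 ≤ m → ∀ (f : E2 → ℝ) (P Ph : E2 → E2) (A : E2 ≃L[ℝ] E2),
    (∀ v, fderiv ℝ H.a (0, y) (v, 0) = A v) → (∀ q, A.symm q = H.Mt y q) →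
    ContDiffAt ℝ ∞ P 0 → ContDiffAt ℝ ∞ Ph 0 → P 0 = y → Ph 0 = y → ContDiffAt ℝ ∞ f 0 →
    (∀ᶠ q in 𝓝 0, P q - Ph q = ∇ f q) → OB (m + 1) f →
    OB (m + 1) fun q => tr2 ((A.symm : E2 →L[ℝ] E2) ∘L
      fderiv ℝ (fun q => H.a (q, P q) - H.a (q, Ph q)) q)
      + (c * k * ((k - 1 : ℕ) : ℝ) / m₁) * y 1 ^ (k - 2) * (q 0 * D2 (D2 f) q)

/-- the top part of the action on the jets of the densities -/
def topX (m₁ m₂ c : ℝ) (k : ℕ) (y : E2) (S X : ℕ → ℕ → ℝ) (a₁ a₂ : ℕ) : ℝ :=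
  ∑ j ∈ Finset.range (a₁ + 1), (a₁.choose j : ℝ) * ((c * k * y 1 ^ (k - 1)) ^ j *
    (m₁ ^ (a₁ - j) * m₂ ^ a₂ * (X (a₁ - j) (a₂ + j)
      + (c * k * ((k - 1 : ℕ) : ℝ) / m₁) * y 1 ^ (k - 2) *
        (((a₁ - j : ℕ) : ℝ) * S (a₁ - j - 1) (a₂ + j + 2)))))

/-- the variables on which the remainder of `X_a` depends -/
def depX (a : Ix K) : Set (Ix (K + 1) ⊕ Ix K) :=
  {j | Sum.elim (fun b : Ix (K + 1) => b.ord ≤ a.ord) (fun b : Ix K => b.ord < a.ord) j}

theorem J3_of {m₁ m₂ c : ℝ} {k : ℕ} (htr : TrLead H m₁ m₂ c k)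
    (hMt : ∀ᶠ y in 𝓝 (0 : E2), ∀ q, H.Mt y q = tl m₁ m₂ (c * k * y 1 ^ (k - 1)) q) (K : ℕ) :
    ∃ r > 0, ∃ q : Ix K → (Ix (K + 1) ⊕ Ix K → ℝ) → ℝ,
      (∀ a, ContDiffOn ℝ ∞ (q a) (ball 0 r)) ∧ (∀ a, q a 0 = 0) ∧
      (∀ a, DependsOn (q a) (depX a)) ∧
      ∀ᶠ y in 𝓝 (0 : E2), ∀ a : Ix K, jet (H.X (H.M y)) a.1.1 a.1.2
        = topX m₁ m₂ c k y (jet (H.S y)) (jet (H.X y)) a.1.1 a.1.2 + q a (raw H K y) := by
  obtain ⟨G, hGs, hGe, hG0⟩ := exists_GX H K
  set Q : Ix K → (Ix (K + 1) ⊕ Ix K → ℝ) → ℝ := fun a u =>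
    jet (fun q => G (cutZ a.ord u, q)) a.1.1 a.1.2 with hQ
  have hin : Tendsto (fun z : ZZ K => (z, (0 : E2))) (𝓝 0) (𝓝 0) := by
    have : Continuous fun z : ZZ K => (z, (0 : E2)) := by fun_prop
    exact this.tendsto 0
  have hgs : ∀ᶠ z in 𝓝 (0 : ZZ K), ContDiffAt ℝ ∞ G (z, 0) := hin.eventually hGs
  have hge : ∀ᶠ z in 𝓝 (0 : ZZ K), ∀ᶠ q in 𝓝 (0 : E2),
      G (z, H.a (q, Pf (z.1, q))) = YZ H K (z, q) := by
    filter_upwards [hin.eventually hGe.eventually_nhds] with z hz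
    have h4 : Tendsto (fun q : E2 => (z, q)) (𝓝 0) (𝓝 (z, 0)) := by
      have : Continuous fun q : E2 => (z, q) := by fun_prop
      exact this.tendsto 0
    exact h4.eventually hz
  have hsm : ∀ᶠ u in 𝓝 (0 : Ix (K + 1) ⊕ Ix K → ℝ), ∀ a, ContDiffAt ℝ ∞ (Q a) u := by
    refine eventually_all.2 fun a => ?_
    filter_upwards [(cutZ_tendsto a.ord).eventually hgs] with u hu
    have h1 := smooth_jet (F := G) (z := cutZ a.ord u) hu a.1.1 a.1.2
    exact ContDiffAt.comp (g := fun z => jet (fun q => G (z, q)) a.1.1 a.1.2) u h1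
      (cutZ_smooth a.ord).contDiffAt
  obtain ⟨r, hr, hrs⟩ := Metric.eventually_nhds_iff_ball.1 hsm
  refine ⟨r, hr, Q, fun a u hu => (hrs u hu a).contDiffWithinAt, ?_, ?_, ?_⟩
  · intro a
    simp only [hQ]
    rw [cutZ_zero, jet_congr (g := fun _ => (0 : ℝ)) hG0]
    exact jet_const_zero _ _
  · intro a u u' huu
    have h1 : cutZ a.ord u = cutZ a.ord u' := by
      unfold cutZ
      refine Prod.ext ?_ ?_
      · ext b
        simp only [low]
        split_ifs with hb
        · exact huu (Sum.inl b) (show b.ord ≤ a.ord by omega)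
        · rfl
      · ext b
        simp only [low]
        split_ifs with hb
        · exact huu (Sum.inr b) (show b.ord < a.ord from hb)
        · rfl
    simp only [hQ, h1]
  · refine eventually_all.2 fun a => ?_
    have hm1 : 1 ≤ a.ord := a.one_le
    have hmK : a.ord ≤ K := a.le
    set m := a.ord with hm
    have hz0 : Tendsto (fun y => cutZ (K := K) m (raw H K y)) (𝓝 0) (𝓝 0) :=
      (cutZ_tendsto m).comp (raw_tendsto H)
    filter_upwards [hz0.eventually hgs, hz0.eventually hge, htr, hMt,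
      ball_mem_nhds (0 : E2) H.ρ_pos] with y hy1 hy2 hy3 hy4 hyρ
    have hyr : y ∈ ball (0 : E2) H.r := ball_subset_ball H.ρ_le hyρ
    have hMy : H.M y ∈ ball (0 : E2) H.r := H.M_maps y hyρ
    obtain ⟨A, hA, hAs⟩ := H.exists_A hyr
    set z := cutZ (K := K) m (raw H K y) with hz
    have hz1 : z.1 = low (m + 1) (H.T (K + 1) y) := rfl
    have hz2 : z.2 = low m (jv K (H.X y)) := rfl
    have hlab : lab z.1 = y := by
      rw [hz1, lab_low (by omega), H.lab_T (by omega) hyr]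
    -- the jets of the truncations
    have hcf1 : ∀ i j, i + j ≤ m → cf z.1 i j = jet (H.S y) i j := by
      intro i j hij
      by_cases h0 : i + j = 0
      · have hi : i = 0 := by omega
        have hj : j = 0 := by omega
        rw [hi, hj, cf_zero, jet_zero, H.S_val y hyr]
      · have hmem : (i, j) ∈ idx (K + 1) := mem_idx.2 ⟨by omega, by omega⟩
        unfold cf
        rw [dif_pos hmem, hz1]
        unfold low
        rw [if_pos (show Ix.ord (K := K + 1) ⟨(i, j), hmem⟩ < m + 1 from by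
          change i + j < m + 1; omega)]
        rfl
    have hcf1' : ∀ i j, i + j = m + 1 → cf z.1 i j = 0 := by
      intro i j hij
      unfold cf
      split_ifs with hmem
      · rw [hz1]
        unfold low
        rw [if_neg (show ¬ Ix.ord (K := K + 1) ⟨(i, j), hmem⟩ < m + 1 from by
          change ¬ (i + j < m + 1); omega)]
      · rfl
    have hcf2 : ∀ i j, i + j < m → cf z.2 i j = jet (H.X y) i j := by
      intro i j hij
      by_cases h0 : i + j = 0
      · have hi : i = 0 := by omega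
        have hj : j = 0 := by omega
        rw [hi, hj, cf_zero, jet_zero, H.X_val y hyr]
      · have hmem : (i, j) ∈ idx K := mem_idx.2 ⟨by omega, by omega⟩
        unfold cf
        rw [dif_pos hmem, hz2]
        unfold low
        rw [if_pos (show Ix.ord (K := K) ⟨(i, j), hmem⟩ < m from by
          change i + j < m; omega)]
        rfl
    have hcf2' : ∀ i j, i + j = m → cf z.2 i j = 0 := by
      intro i j hij
      unfold cf
      split_ifs with hmem
      · rw [hz2]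
        unfold low
        rw [if_neg (show ¬ Ix.ord (K := K) ⟨(i, j), hmem⟩ < m from by
          change ¬ (i + j < m); omega)]
      · rfl
    -- the functions
    set f : E2 → ℝ := fun q => H.S y q - Sf z.1 q with hf
    have hSs : ContDiffAt ℝ ∞ (H.S y) 0 := H.S_at hyr
    have hXs : ContDiffAt ℝ ∞ (H.X y) 0 := X_at H hyr
    have hfs : ContDiffAt ℝ ∞ f 0 := hSs.sub (Sf_smooth _).contDiffAt
    have hfj : ∀ i j, i + j < K + 2 → jet f i j = jet (H.S y) i j - cf z.1 i j := by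
      intro i j hij
      rw [hf, H394.jet_sub hSs (Sf_smooth _).contDiffAt]
      congr 1
      exact jet_tay _ _ _ _ (by omega)
    have hfO : OB (m + 1) f := isBigO_of_jet hfs fun i j hij => by
      rw [hfj i j (by omega), hcf1 i j (by omega), sub_self]
    set X : E2 → ℝ := H.X y with hX
    set Xh : E2 → ℝ := fun q => Sf z.2 q with hXh
    have hXhs : ContDiffAt ℝ ∞ Xh 0 := (Sf_smooth _).contDiffAt
    have hXj : ∀ i j, i + j < K + 1 → jet (fun q => X q - Xh q) i j = jet X i j - cf z.2 i j := by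
      intro i j hij
      rw [H394.jet_sub hXs hXhs]
      congr 1
      exact jet_tay _ _ _ _ (by omega)
    have hXO : OB m fun q => X q - Xh q := isBigO_of_jet (hXs.sub hXhs) fun i j hij => by
      rw [hXj i j (by omega), hcf2 i j (by omega), sub_self]
    -- the graphs
    have hPhs : ContDiffAt ℝ ∞ (fun q => Pf (z.1, q)) 0 := by
      have h1 : ContDiffAt ℝ ∞ (fun q : E2 => (z.1, q)) 0 := by fun_prop
      exact ContDiffAt.comp (g := Pf) (0 : E2) (Pf_smooth (K + 1)).contDiffAt h1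
    have hPs : ContDiffAt ℝ ∞ (∇ (H.S y)) 0 := smooth_grad hSs
    have hPh0 : (fun q => Pf (z.1, q)) 0 = y := by
      simp only
      rw [Pf_zero_right _ (by omega), hlab]
    have hdiff : ∀ᶠ q in 𝓝 (0 : E2), ∇ (H.S y) q - Pf (z.1, q) = ∇ f q := by
      filter_upwards [(hSs.of_le (m := 1) (by norm_cast)).eventually (by simp)] with q hq
      rw [← grad_Sf]
      refine ext_inner_right ℝ fun w => ?_
      rw [inner_sub_left]
      have t1 : ⟪∇ (H.S y) q, w⟫ = fderiv ℝ (H.S y) q w := inner_gradient_left (𝕜 := ℝ)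
      have t2 : ⟪∇ (Sf z.1) q, w⟫ = fderiv ℝ (Sf z.1) q w := inner_gradient_left (𝕜 := ℝ)
      have t3 : ⟪∇ f q, w⟫ = fderiv ℝ f q w := inner_gradient_left (𝕜 := ℝ)
      rw [t1, t2, t3, hf, fderiv_fun_sub (hq.differentiableAt one_ne_zero)
        ((Sf_smooth _).differentiable (by simp) _)]
      rfl
    have hPO : OB m fun q => ∇ (H.S y) q - Pf (z.1, q) := by
      have h1 := OB_grad (m := m) hSs (Sf_smooth z.1).contDiffAt hfO
      refine h1.congr (Eventually.of_forall fun q => ?_)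
      simp only [grad_Sf]
    -- the new densities
    set X' : E2 → ℝ := H.X (H.M y) with hX'
    have hX's : ContDiffAt ℝ ∞ X' 0 := X_at H hMy
    set Xh' : E2 → ℝ := fun q => G (z, q) with hXh'
    have hXh's : ContDiffAt ℝ ∞ Xh' 0 := by
      have h1 : ContDiffAt ℝ ∞ (fun q : E2 => (z, q)) 0 := by fun_prop
      exact ContDiffAt.comp (g := G) (0 : E2) hy1 h1
    have hc : (fderiv ℝ H.M y).det ≠ 0 := H395.det_M_ne H hyr
    have hcmp := xt_compare (X := X) (Xh := Xh) (X' := X') (Xh' := Xh') hc hm1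
      (H.a_at (H.mem0 hyr)) (H.a_zero y hyr) hA (H.a_p hyr) hPs hPhs (H.S_grad y hyr) hPh0
      hXs hXhs hX's
      (by
        filter_upwards [ball_mem_nhds (0 : E2) H.ρ_pos] with q hq
        exact H.X_inv y hyρ q hq)
      (by
        filter_upwards [hy2] with q hq
        rw [hXh']
        simp only
        rw [hq]
        unfold YZ
        simp only [hlab]
        rfl) hPO hXO
    have htl := hy3 m hm1 f (∇ (H.S y)) (fun q => Pf (z.1, q)) A hA hAs hPs hPhs
      (H.S_grad y hyr) hPh0 hfs hdiff hfO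
    -- the sum
    set κ : ℝ := (c * k * ((k - 1 : ℕ) : ℝ) / m₁) * y 1 ^ (k - 2) with hκ
    set W : E2 → ℝ := fun q => (X q - Xh q) + κ * (q 0 * D2 (D2 f) q) with hW
    have hD2 : ContDiffAt ℝ ∞ (D2 (D2 f)) 0 := smooth_D2 (smooth_D2 hfs)
    have hqD : ContDiffAt ℝ ∞ (fun q : E2 => q 0 * D2 (D2 f) q) 0 :=
      (coord_smooth 0).contDiffAt.mul hD2
    have hWs : ContDiffAt ℝ ∞ W 0 := (hXs.sub hXhs).add (contDiffAt_const.mul hqD)
    have hO1 : OB 1 fun q => A.symm q := OB.of_differentiableAt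
      (A.symm : E2 →L[ℝ] E2).differentiableAt (map_zero _)
    have htl' := OB.comp htl hO1
    have hsum : OB (m + 1) fun q => X' q - (Xh' q + W (tl m₁ m₂ (c * k * y 1 ^ (k - 1)) q)) := by
      refine (hcmp.sub htl').congr (Eventually.of_forall fun q => ?_)
      have e1 : A.symm q = tl m₁ m₂ (c * k * y 1 ^ (k - 1)) q := by rw [hAs, hy4]
      simp only [hW]
      rw [← e1]
      ring
    have hWc : ContDiffAt ℝ ∞ (fun q => W (tl m₁ m₂ (c * k * y 1 ^ (k - 1)) q)) 0 :=
      ContDiffAt.comp (g := W) 0 (by rw [tl_at_zero]; exact hWs) (tl_smooth _ _ _).contDiffAt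
    have ha12 : a.1.1 + a.1.2 = m := rfl
    have hjet := jet_eq hX's (hXh's.add hWc) hsum a.1.1 a.1.2 (by omega)
    rw [hjet, H394.jet_add hXh's hWc, jet_comp_tl' hWs]
    have hWj : ∀ i j, i + j = m → jet W i j = jet X i j
        + κ * ((i : ℝ) * jet (H.S y) (i - 1) (j + 2)) := by
      intro i j hij
      rw [hW, H394.jet_add (hXs.sub hXhs) (contDiffAt_const.mul hqD), H394.jet_mul_left hqD,
        hXj i j (by omega), hcf2' i j hij, sub_zero, jet_coord_mul i j hD2]
      congr 2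
      rcases Nat.eq_zero_or_pos i with h0 | h0
      · subst h0
        simp
      · congr 1
        rw [jet_D2, jet_D2, hfj _ _ (by omega), hcf1' _ _ (by omega), sub_zero]
    have hQa : Q a (raw H K y) = jet Xh' a.1.1 a.1.2 := rfl
    rw [hQa, add_comm]
    congr 1
    unfold topX
    refine Finset.sum_congr rfl fun j hj => ?_
    rw [Finset.mem_range] at hj
    rw [hWj _ _ (by omega)]

end Vale.Agent.P207.N3.H394
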