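import Vale.Agent.P207.N3.H391.JAct

/-!
# P207, line N3: jets of sums and of compositions with a triangular linear map
-/

open Set Filter Topology Metric MeasureTheory Asymptotics InnerProductSpace
open scoped ContDiff Gradient RealInnerProductSpace

noncomputable section

namespace Vale.Agent.P207.N3.H394

open Jet

variable {V : Type*} [NormedAddCommGroup V] [NormedSpace ℝ V]

lemma jet_add {f g : E2 → V} (hf : ContDiffAt ℝ ∞ f 0) (hg : ContDiffAt ℝ ∞ g 0) (i j : ℕ) :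
    jet (fun q => f q + g q) i j = jet f i j + jet g i j := by
  have h1 : (fun q => (f q + g q) - tay (i + j + 1) (fun i j => jet f i j + jet g i j) q)
      =O[𝓝 0] fun q => ‖q‖ ^ (i + j + 1) := by
    refine ((taylor hf (i + j + 1)).add (taylor hg (i + j + 1))).congr_left fun q => ?_
    rw [tay_add (c := jet f) (d := jet g)]
    abel
  rw [jet_eq (hf.add hg) (tay_smooth _ _).contDiffAt h1 i j (by omega), jet_tay _ _ _ _ (by omega)]

lemma jet_const_smul {f : E2 → V} (hf : ContDiffAt ℝ ∞ f 0) (s : ℝ) (i j : ℕ) :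
    jet (fun q => s • f q) i j = s • jet f i j := by
  have h1 : (fun q => s • f q - tay (i + j + 1) (fun i j => s • jet f i j) q)
      =O[𝓝 0] fun q => ‖q‖ ^ (i + j + 1) := by
    refine ((taylor hf (i + j + 1)).const_smul_left s).congr_left fun q => ?_
    rw [tay_smul (c := jet f)]
    simp only [Pi.smul_apply, smul_sub]
  have h2 : ContDiffAt ℝ ∞ (fun q => s • f q) 0 := contDiffAt_const.smul hf
  rw [jet_eq h2 (tay_smooth _ _).contDiffAt h1 i j (by omega), jet_tay _ _ _ _ (by omega)]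

lemma jet_mul_left {f : E2 → ℝ} (hf : ContDiffAt ℝ ∞ f 0) (s : ℝ) (i j : ℕ) :
    jet (fun q => s * f q) i j = s * jet f i j := jet_const_smul hf s i j

lemma jet_sub {f g : E2 → V} (hf : ContDiffAt ℝ ∞ f 0) (hg : ContDiffAt ℝ ∞ g 0) (i j : ℕ) :
    jet (fun q => f q - g q) i j = jet f i j - jet g i j := by
  have h1 : (fun q => (f q - g q) - tay (i + j + 1) (fun i j => jet f i j - jet g i j) q)
      =O[𝓝 0] fun q => ‖q‖ ^ (i + j + 1) := by
    refine ((taylor hf (i + j + 1)).sub (taylor hg (i + j + 1))).congr_left fun q => ?_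
    have e : tay (i + j + 1) (fun i j => jet f i j - jet g i j) q
        = tay (i + j + 1) (jet f) q - tay (i + j + 1) (jet g) q := by
      unfold tay
      simp [smul_sub, Finset.sum_sub_distrib]
    rw [e]
    abel
  rw [jet_eq (hf.sub hg) (tay_smooth _ _).contDiffAt h1 i j (by omega), jet_tay _ _ _ _ (by omega)]

/-- the triangular linear map `q ↦ (m₁ q₀, β q₀ + m₂ q₁)` -/
def tl (m₁ m₂ β : ℝ) (q : E2) : E2 := !₂[m₁ * q 0, β * q 0 + m₂ * q 1]

lemma tl_zero (m₁ m₂ β : ℝ) (q : E2) : tl m₁ m₂ β q 0 = m₁ * q 0 := rfl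
lemma tl_one (m₁ m₂ β : ℝ) (q : E2) : tl m₁ m₂ β q 1 = β * q 0 + m₂ * q 1 := rfl

lemma hasFDerivAt_tl (m₁ m₂ β : ℝ) (q : E2) :
    ∃ L : E2 →L[ℝ] E2, HasFDerivAt (tl m₁ m₂ β) L q ∧ L e1 = !₂[m₁, β] ∧ L e2 = !₂[0, m₂] := by
  have hs : ∀ q : E2, tl m₁ m₂ β q = LinearMap.toContinuousLinearMap
      ({ toFun := tl m₁ m₂ β
         map_add' := by
          intro x y
          ext i
          fin_cases i
          · simp [tl]; ring
          · simp [tl]; ring
         map_smul' := by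
          intro s x
          ext i
          fin_cases i
          · simp [tl]; ring
          · simp [tl]; ring } : E2 →ₗ[ℝ] E2) q := fun q => rfl
  refine ⟨_, (ContinuousLinearMap.hasFDerivAt _).congr_of_eventuallyEq
    (Eventually.of_forall hs), ?_, ?_⟩
  · change tl m₁ m₂ β e1 = _
    ext i
    fin_cases i <;> simp [tl, e1]
  · change tl m₁ m₂ β e2 = _
    ext i
    fin_cases i <;> simp [tl, e2]

lemma tl_at_zero (m₁ m₂ β : ℝ) : tl m₁ m₂ β 0 = 0 := by
  ext i
  fin_cases i <;> simp [tl]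

lemma tl_smooth (m₁ m₂ β : ℝ) : ContDiff ℝ ∞ (tl m₁ m₂ β) := by
  rw [contDiff_euclidean]
  intro i
  fin_cases i
  · exact contDiff_const.mul (coord_smooth 0)
  · exact (contDiff_const.mul (coord_smooth 0)).add (contDiff_const.mul (coord_smooth 1))

lemma D1_comp_tl {f : E2 → V} (hf : ContDiff ℝ ∞ f) (m₁ m₂ β : ℝ) :
    D1 (fun q => f (tl m₁ m₂ β q))
      = fun q => m₁ • D1 f (tl m₁ m₂ β q) + β • D2 f (tl m₁ m₂ β q) := by
  ext q
  obtain ⟨L, hL, h1, h2⟩ := hasFDerivAt_tl m₁ m₂ β q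
  have h3 := (hf.differentiable (by simp) (tl m₁ m₂ β q)).hasFDerivAt.comp q hL
  change fderiv ℝ (f ∘ tl m₁ m₂ β) q e1 = _
  rw [h3.fderiv, ContinuousLinearMap.comp_apply, h1, Jet.fderiv_eq]
  simp

lemma D2_comp_tl {f : E2 → V} (hf : ContDiff ℝ ∞ f) (m₁ m₂ β : ℝ) :
    D2 (fun q => f (tl m₁ m₂ β q)) = fun q => m₂ • D2 f (tl m₁ m₂ β q) := by
  ext q
  obtain ⟨L, hL, h1, h2⟩ := hasFDerivAt_tl m₁ m₂ β q
  have h3 := (hf.differentiable (by simp) (tl m₁ m₂ β q)).hasFDerivAt.comp q hL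
  change fderiv ℝ (f ∘ tl m₁ m₂ β) q e2 = _
  rw [h3.fderiv, ContinuousLinearMap.comp_apply, h2, Jet.fderiv_eq]
  simp

lemma smooth_D1' {f : E2 → V} (hf : ContDiff ℝ ∞ f) : ContDiff ℝ ∞ (D1 f) :=
  contDiff_iff_contDiffAt.2 fun q => smooth_D1 hf.contDiffAt

lemma smooth_D2' {f : E2 → V} (hf : ContDiff ℝ ∞ f) : ContDiff ℝ ∞ (D2 f) :=
  contDiff_iff_contDiffAt.2 fun q => smooth_D2 hf.contDiffAt

/-- **the jets of `f ∘ L`**, `L q = (m₁ q₀, β q₀ + m₂ q₁)` -/
theorem jet_comp_tl (m₁ m₂ β : ℝ) (a₁ a₂ : ℕ) : ∀ {f : E2 → ℝ}, ContDiff ℝ ∞ f →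
    jet (fun q => f (tl m₁ m₂ β q)) a₁ a₂ = ∑ j ∈ Finset.range (a₁ + 1),
      (a₁.choose j : ℝ) * (β ^ j * (m₁ ^ (a₁ - j) * m₂ ^ a₂ * jet f (a₁ - j) (a₂ + j))) := by
  induction a₁ with
  | zero =>
    induction a₂ with
    | zero =>
      intro f hf
      simp [jet_zero, tl_at_zero]
    | succ a₂ ih =>
      intro f hf
      have hc : ContDiff ℝ ∞ fun q => D2 f (tl m₁ m₂ β q) := (smooth_D2' hf).comp (tl_smooth _ _ _)
      rw [← jet_D2, D2_comp_tl hf]
      have h1 := jet_mul_left hc.contDiffAt (s := m₂) 0 a₂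
      simp only [smul_eq_mul]
      rw [h1, ih (smooth_D2' hf)]
      simp only [zero_add, Finset.range_one, Finset.sum_singleton, Nat.choose_self, Nat.cast_one,
        pow_zero, Nat.sub_self, one_mul, add_zero, jet_D2]
      ring
  | succ a₁ ih =>
    intro f hf
    have hc1 : ContDiff ℝ ∞ fun q => D1 f (tl m₁ m₂ β q) := (smooth_D1' hf).comp (tl_smooth _ _ _)
    have hc2 : ContDiff ℝ ∞ fun q => D2 f (tl m₁ m₂ β q) := (smooth_D2' hf).comp (tl_smooth _ _ _)
    have hc : ContDiff ℝ ∞ fun q => f (tl m₁ m₂ β q) := hf.comp (tl_smooth _ _ _)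
    rw [← jet_D1 hc.contDiffAt, D1_comp_tl hf]
    simp only [smul_eq_mul]
    rw [jet_add (contDiff_const.mul hc1).contDiffAt (contDiff_const.mul hc2).contDiffAt,
      jet_mul_left hc1.contDiffAt, jet_mul_left hc2.contDiffAt, ih (smooth_D1' hf),
      ih (smooth_D2' hf)]
    have key := Finset.sum_choose_succ_mul (R := ℝ)
      (fun j i => β ^ j * (m₁ ^ i * m₂ ^ a₂ * jet f i (a₂ + j))) a₁
    refine Eq.trans ?_ key.symm
    rw [Finset.mul_sum, Finset.mul_sum]
    congr 1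
    · refine Finset.sum_congr rfl fun j hj => ?_
      rw [Finset.mem_range] at hj
      rw [jet_D1 hf.contDiffAt, show a₁ + 1 - j = a₁ - j + 1 by omega, pow_succ m₁]
      ring
    · refine Finset.sum_congr rfl fun j hj => ?_
      rw [jet_D2, pow_succ β, show a₂ + (j + 1) = a₂ + j + 1 by omega]
      ring

end Vale.Agent.P207.N3.H394
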