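import Vale.Agent.P207.N3.H394.JetLin

/-!
# P207, line N3: comparison of two transported densities
-/

open Set Filter Topology Metric MeasureTheory Asymptotics InnerProductSpace
open scoped ContDiff Gradient RealInnerProductSpace

noncomputable section

namespace Vale.Agent.P207.N3.H394

open Jet

/-! ### the logarithm of the determinant -/

theorem det_E2 (A : E2 →L[ℝ] E2) : A.det = (A e1) 0 * (A e2) 1 - (A e2) 0 * (A e1) 1 := by
  have h1 : A.det = LinearMap.det (A : E2 →ₗ[ℝ] E2) := rfl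
  rw [h1, ← LinearMap.det_toMatrix (EuclideanSpace.basisFun (Fin 2) ℝ).toBasis,
    Matrix.det_fin_two]
  simp [LinearMap.toMatrix_apply, e1, e2]

theorem contDiff_det2 : ContDiff ℝ ∞ (fun A : E2 →L[ℝ] E2 => A.det) := by
  have h1 : (fun A : E2 →L[ℝ] E2 => A.det) = fun A => (A e1) 0 * (A e2) 1 - (A e2) 0 * (A e1) 1 :=
    funext det_E2
  rw [h1]
  have h2 : ∀ (v : E2) (j : Fin 2), ContDiff ℝ ∞ (fun A : E2 →L[ℝ] E2 => (A v) j) := by
    intro v j
    exact ((EuclideanSpace.proj j : E2 →L[ℝ] ℝ).comp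
      (ContinuousLinearMap.apply ℝ E2 v)).contDiff
  exact ((h2 e1 0).mul (h2 e2 1)).sub ((h2 e2 0).mul (h2 e1 1))

theorem det_comp2 (A B : E2 →L[ℝ] E2) : (A ∘L B).det = A.det * B.det := by
  show LinearMap.det ((A : E2 →ₗ[ℝ] E2) ∘ₗ (B : E2 →ₗ[ℝ] E2)) = _
  rw [LinearMap.det_comp]

lemma det_one2 : (1 : E2 →L[ℝ] E2).det = 1 := by
  change LinearMap.det ((1 : E2 →L[ℝ] E2) : E2 →ₗ[ℝ] E2) = 1
  exact LinearMap.det_id

theorem det_equiv_ne (A : E2 ≃L[ℝ] E2) : (A : E2 →L[ℝ] E2).det ≠ 0 := by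
  have h1 : ((A : E2 →L[ℝ] E2) ∘L (A.symm : E2 →L[ℝ] E2)).det = 1 := by
    have : (A : E2 →L[ℝ] E2) ∘L (A.symm : E2 →L[ℝ] E2) = 1 := by
      ext1 x
      simp
    rw [this, det_one2]
  rw [det_comp2] at h1
  intro h2
  rw [h2, zero_mul] at h1
  exact zero_ne_one h1

/-- the trace -/
def tr2 (L : E2 →L[ℝ] E2) : ℝ := (L e1) 0 + (L e2) 1

/-- the trace, as a linear map -/
def trL : (E2 →L[ℝ] E2) →L[ℝ] ℝ :=
  ((EuclideanSpace.proj 0 : E2 →L[ℝ] ℝ).comp (ContinuousLinearMap.apply ℝ E2 e1)) +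
    ((EuclideanSpace.proj 1 : E2 →L[ℝ] ℝ).comp (ContinuousLinearMap.apply ℝ E2 e2))

lemma trL_apply (L : E2 →L[ℝ] E2) : trL L = tr2 L := rfl

lemma hasFDerivAt_det : HasFDerivAt (fun L : E2 →L[ℝ] E2 => L.det) trL (1 : E2 →L[ℝ] E2) := by
  have h1 : (fun A : E2 →L[ℝ] E2 => A.det) = fun A => (A e1) 0 * (A e2) 1 - (A e2) 0 * (A e1) 1 :=
    funext det_E2
  rw [h1]
  have h2 : ∀ (v : E2) (j : Fin 2), HasFDerivAt (fun A : E2 →L[ℝ] E2 => (A v) j)
      ((EuclideanSpace.proj j : E2 →L[ℝ] ℝ).comp (ContinuousLinearMap.apply ℝ E2 v))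
      (1 : E2 →L[ℝ] E2) := by
    intro v j
    exact ((EuclideanSpace.proj j : E2 →L[ℝ] ℝ).comp
      (ContinuousLinearMap.apply ℝ E2 v)).hasFDerivAt
  have h3 := ((h2 e1 0).mul (h2 e2 1)).sub ((h2 e2 0).mul (h2 e1 1))
  refine h3.congr_fderiv ?_
  ext V
  simp [trL, e1, e2]
  ring

/-- `log |det|` -/
def ld (L : E2 →L[ℝ] E2) : ℝ := Real.log |L.det|

lemma ld_smooth {L : E2 →L[ℝ] E2} (hL : L.det ≠ 0) : ContDiffAt ℝ ∞ ld L := by
  unfold ld
  have h1 : (fun L : E2 →L[ℝ] E2 => Real.log |L.det|) = fun L => Real.log L.det := by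
    funext L
    exact Real.log_abs _
  rw [h1]
  exact (contDiff_det2.contDiffAt).log hL

lemma ld_fderiv (V : E2 →L[ℝ] E2) : fderiv ℝ ld (1 : E2 →L[ℝ] E2) V = tr2 V := by
  have h1 : ld = fun L : E2 →L[ℝ] E2 => Real.log L.det := by
    funext L
    exact Real.log_abs _
  have h2 : HasFDerivAt (fun L : E2 →L[ℝ] E2 => Real.log L.det)
      ((1 : E2 →L[ℝ] E2).det⁻¹ • trL) (1 : E2 →L[ℝ] E2) :=
    HasFDerivAt.log hasFDerivAt_det (by rw [det_one2]; exact one_ne_zero)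
  rw [h1, h2.fderiv, det_one2]
  simp [trL_apply]

/-! ### the comparison -/

section Comp

variable {a : E2 × E2 → E2} {P Ph : E2 → E2} {y : E2} {m : ℕ} {A : E2 ≃L[ℝ] E2}

/-- the curve `q ↦ a (q, P q)` -/
lemma curve_smooth (ha : ContDiffAt ℝ ∞ a (0, y)) (hP : ContDiffAt ℝ ∞ P 0) (hP0 : P 0 = y) :
    ContDiffAt ℝ ∞ (fun q => a (q, P q)) 0 := by
  have hus : ContDiffAt ℝ ∞ (fun q => (q, P q)) (0 : E2) := contDiffAt_id.prodMk hP
  exact ContDiffAt.comp (g := a) (f := fun q => (q, P q)) 0 (by simpa [hP0] using ha) hus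

lemma curve_fderiv (ha : ContDiffAt ℝ ∞ a (0, y)) (haq : ∀ v, fderiv ℝ a (0, y) (v, 0) = A v)
    (hap : ∀ v, fderiv ℝ a (0, y) (0, v) = 0) (hP : ContDiffAt ℝ ∞ P 0) (hP0 : P 0 = y) :
    fderiv ℝ (fun q => a (q, P q)) 0 = (A : E2 →L[ℝ] E2) := by
  have hus : ContDiffAt ℝ ∞ (fun q => (q, P q)) (0 : E2) := contDiffAt_id.prodMk hP
  have h3 : HasFDerivAt (fun q => a (q, P q))
      ((fderiv ℝ a (0, y)).comp (fderiv ℝ (fun q => (q, P q)) 0)) 0 := by
    have h4 : HasFDerivAt a (fderiv ℝ a (0, y)) ((fun q => (q, P q)) (0 : E2)) := by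
      simp only [hP0]
      exact (ha.differentiableAt (by simp)).hasFDerivAt
    exact h4.comp 0 (hus.differentiableAt (by simp)).hasFDerivAt
  rw [h3.fderiv]
  ext1 w
  have h5 : fderiv ℝ (fun q => (q, P q)) 0 w = (w, fderiv ℝ P 0 w) := by
    have h6 : HasFDerivAt (fun q => (q, P q)) ((ContinuousLinearMap.id ℝ E2).prod (fderiv ℝ P 0)) 0 :=
      (hasFDerivAt_id _).prodMk (hP.differentiableAt (by simp)).hasFDerivAt
    rw [h6.fderiv]
    rfl
  rw [ContinuousLinearMap.comp_apply, h5]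
  have h7 : (w, fderiv ℝ P 0 w) = (w, (0 : E2)) + ((0 : E2), fderiv ℝ P 0 w) := by simp
  rw [h7, map_add, haq, hap, add_zero]
  rfl

lemma curve_sub (ha : ContDiffAt ℝ ∞ a (0, y)) (hap : ∀ v, fderiv ℝ a (0, y) (0, v) = 0)
    (hP : ContDiffAt ℝ ∞ P 0) (hPh : ContDiffAt ℝ ∞ Ph 0) (hP0 : P 0 = y) (hPh0 : Ph 0 = y)
    (hQ : OB m fun q => P q - Ph q) : OB (m + 1) fun q => a (q, P q) - a (q, Ph q) := by
  have hus : ContDiffAt ℝ ∞ (fun q => (q, P q)) (0 : E2) := contDiffAt_id.prodMk hP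
  have hvs : ContDiffAt ℝ ∞ (fun q => (q, Ph q)) (0 : E2) := contDiffAt_id.prodMk hPh
  have hu1 : OB 1 fun q : E2 => (q, P q) - (0, y) := OB.of_differentiableAt
    ((hus.differentiableAt (by simp)).sub_const _) (by simp [hP0])
  have hv1 : OB 1 fun q : E2 => (q, Ph q) - (0, y) := OB.of_differentiableAt
    ((hvs.differentiableAt (by simp)).sub_const _) (by simp [hPh0])
  have huv : OB m fun q : E2 => (q, P q) - (q, Ph q) := by
    have e : (fun q : E2 => (q, P q) - (q, Ph q)) = fun q => ((0 : E2), P q - Ph q) := by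
      ext q <;> simp
    rw [e]
    exact OB.clm_const hQ (ContinuousLinearMap.inr ℝ E2 E2)
  have h3 := OB.C2 (ha.of_le (by norm_cast)) hu1 hv1 huv
  refine h3.congr (Eventually.of_forall fun q => ?_)
  have : ((q, P q) : E2 × E2) - (q, Ph q) = (0, P q - Ph q) := by simp
  simp only [this, hap, sub_zero]

/-- the logarithms of the determinants -/
lemma ld_sub {c : ℝ} (hc : c ≠ 0) (hm : 1 ≤ m) (ha : ContDiffAt ℝ ∞ a (0, y))
    (haq : ∀ v, fderiv ℝ a (0, y) (v, 0) = A v)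
    (hap : ∀ v, fderiv ℝ a (0, y) (0, v) = 0)
    (hP : ContDiffAt ℝ ∞ P 0) (hPh : ContDiffAt ℝ ∞ Ph 0) (hP0 : P 0 = y) (hPh0 : Ph 0 = y)
    (hQ : OB m fun q => P q - Ph q) :
    OB (m + 1) fun q => Real.log |(fderiv ℝ (fun q => a (q, P q)) q).det * c|
      - Real.log |(fderiv ℝ (fun q => a (q, Ph q)) q).det * c|
      - tr2 ((A.symm : E2 →L[ℝ] E2) ∘L fderiv ℝ (fun q => a (q, P q) - a (q, Ph q)) q) := by
  have hF := curve_smooth ha hP hP0
  have hFh := curve_smooth ha hPh hPh0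
  have hF0 := curve_fderiv ha haq hap hP hP0
  have hFh0 := curve_fderiv ha haq hap hPh hPh0
  have hG := OB.fderiv (hF.sub hFh) (curve_sub ha hap hP hPh hP0 hPh0 hQ)
  have hAd : (A : E2 →L[ℝ] E2).det ≠ 0 := det_equiv_ne A
  have hAs : (A.symm : E2 →L[ℝ] E2) ∘L (A : E2 →L[ℝ] E2) = 1 := by
    ext1 x
    simp
  -- the maps `A⁻¹ DF`
  set comp : (E2 →L[ℝ] E2) →L[ℝ] (E2 →L[ℝ] E2) :=
    ContinuousLinearMap.compL ℝ E2 E2 E2 (A.symm : E2 →L[ℝ] E2) with hcomp
  have hcompa : ∀ L, comp L = (A.symm : E2 →L[ℝ] E2) ∘L L := fun L => rfl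
  have hdF : ContDiffAt ℝ ∞ (fderiv ℝ fun q => a (q, P q)) 0 :=
    hF.fderiv_right (m := ∞) (by norm_cast)
  have hdFh : ContDiffAt ℝ ∞ (fderiv ℝ fun q => a (q, Ph q)) 0 :=
    hFh.fderiv_right (m := ∞) (by norm_cast)
  have hu : OB 1 fun q => comp (fderiv ℝ (fun q => a (q, P q)) q) - (1 : E2 →L[ℝ] E2) := by
    refine OB.of_differentiableAt
      ((comp.differentiableAt.comp 0 (hdF.differentiableAt (by simp))).sub_const _) ?_
    rw [hF0, hcompa, hAs, sub_self]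
  have hv : OB 1 fun q => comp (fderiv ℝ (fun q => a (q, Ph q)) q) - (1 : E2 →L[ℝ] E2) := by
    refine OB.of_differentiableAt
      ((comp.differentiableAt.comp 0 (hdFh.differentiableAt (by simp))).sub_const _) ?_
    rw [hFh0, hcompa, hAs, sub_self]
  have hd : ∀ᶠ q in 𝓝 (0 : E2), fderiv ℝ (fun q => a (q, P q) - a (q, Ph q)) q
      = fderiv ℝ (fun q => a (q, P q)) q - fderiv ℝ (fun q => a (q, Ph q)) q := by
    filter_upwards [(hF.of_le (m := 1) (by norm_cast)).eventually (by simp),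
      (hFh.of_le (m := 1) (by norm_cast)).eventually (by simp)] with q h2 h3
    exact fderiv_fun_sub (h2.differentiableAt one_ne_zero) (h3.differentiableAt one_ne_zero)
  have huv : OB m fun q => comp (fderiv ℝ (fun q => a (q, P q)) q)
      - comp (fderiv ℝ (fun q => a (q, Ph q)) q) := by
    refine (hG.clm_const comp).congr ?_
    filter_upwards [hd] with q hq
    rw [← map_sub, ← hq]
  have h1 := OB.C2 ((ld_smooth (by rw [det_one2]; exact one_ne_zero)).of_le (m := 2)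
    (by norm_cast)) hu hv huv
  -- the determinants do not vanish near the origin
  have hne : ∀ {F : E2 → E2}, ContDiffAt ℝ ∞ (fderiv ℝ F) 0 →
      fderiv ℝ F 0 = (A : E2 →L[ℝ] E2) → ∀ᶠ q in 𝓝 (0 : E2), (fderiv ℝ F q).det ≠ 0 := by
    intro F hF1 hF2
    have h3 : ContinuousAt (fun q => (fderiv ℝ F q).det) 0 :=
      (contDiff_det2.continuous.continuousAt).comp hF1.continuousAt
    refine h3.eventually_ne ?_
    rw [hF2]
    exact hAd
  refine h1.congr ?_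
  filter_upwards [hne hdF hF0, hne hdFh hFh0, hd] with q hq1 hq2 hq3
  have e : ∀ L : E2 →L[ℝ] E2, L.det ≠ 0 →
      Real.log |L.det * c| = ld (comp L) + Real.log |(A : E2 →L[ℝ] E2).det * c| := by
    intro L hL
    have h5 : (comp L).det * (A : E2 →L[ℝ] E2).det = L.det := by
      have h6 : L = (A : E2 →L[ℝ] E2) ∘L comp L := by
        ext1 x
        simp [hcompa]
      conv_rhs => rw [h6]
      rw [det_comp2]
      ring
    have h7 : (comp L).det ≠ 0 := by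
      intro h8
      rw [h8, zero_mul] at h5
      exact hL h5.symm
    unfold ld
    rw [← Real.log_mul (abs_ne_zero.2 h7) (abs_ne_zero.2 (mul_ne_zero hAd hc)), ← abs_mul, ← h5]
    congr 2
    ring
  rw [e _ hq1, e _ hq2, ld_fderiv, hq3, ← map_sub, hcompa (_ - _)]
  ring

/-- **comparison of the densities** -/
theorem xt_compare {X Xh X' Xh' : E2 → ℝ} {c : ℝ} (hc : c ≠ 0) (hm : 1 ≤ m)
    (ha : ContDiffAt ℝ ∞ a (0, y)) (ha0 : a (0, y) = 0)
    (haq : ∀ v, fderiv ℝ a (0, y) (v, 0) = A v)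
    (hap : ∀ v, fderiv ℝ a (0, y) (0, v) = 0)
    (hP : ContDiffAt ℝ ∞ P 0) (hPh : ContDiffAt ℝ ∞ Ph 0) (hP0 : P 0 = y) (hPh0 : Ph 0 = y)
    (hX : ContDiffAt ℝ ∞ X 0) (hXh : ContDiffAt ℝ ∞ Xh 0)
    (hX' : ContDiffAt ℝ ∞ X' 0)
    (h1 : ∀ᶠ q in 𝓝 (0 : E2), X' (a (q, P q)) = X q
      - Real.log |(fderiv ℝ (fun q => a (q, P q)) q).det * c|)
    (h2 : ∀ᶠ q in 𝓝 (0 : E2), Xh' (a (q, Ph q)) = Xh q
      - Real.log |(fderiv ℝ (fun q => a (q, Ph q)) q).det * c|)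
    (hQ : OB m fun q => P q - Ph q) (hXX : OB m fun q => X q - Xh q) :
    OB (m + 1) fun q => X' q - Xh' q - ((X (A.symm q) - Xh (A.symm q))
      - tr2 ((A.symm : E2 →L[ℝ] E2) ∘L
        fderiv ℝ (fun q => a (q, P q) - a (q, Ph q)) (A.symm q))) := by
  have hF := curve_smooth ha hP hP0
  have hFh := curve_smooth ha hPh hPh0
  have hF0 := curve_fderiv ha haq hap hP hP0
  have hFh0 := curve_fderiv ha haq hap hPh hPh0
  have hGG := curve_sub ha hap hP hPh hP0 hPh0 hQ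
  have hG := OB.fderiv (hF.sub hFh) hGG
  have hld := ld_sub hc hm ha haq hap hP hPh hP0 hPh0 hQ
  have hFz : (fun q => a (q, P q)) 0 = 0 := by simp [hP0, ha0]
  have hFhz : (fun q => a (q, Ph q)) 0 = 0 := by simp [hPh0, ha0]
  set F : E2 → E2 := fun q => a (q, P q) with hFdef
  set Fh : E2 → E2 := fun q => a (q, Ph q) with hFhdef
  -- the function `R`
  set R : E2 → ℝ := fun q => (X q - Xh q) - tr2 ((A.symm : E2 →L[ℝ] E2) ∘L
    fderiv ℝ (fun q => F q - Fh q) q) with hR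
  have hdG : ContDiffAt ℝ ∞ (fderiv ℝ fun q => F q - Fh q) 0 :=
    (hF.sub hFh).fderiv_right (m := ∞) (by norm_cast)
  set TL : (E2 →L[ℝ] E2) →L[ℝ] ℝ := trL.comp
    (ContinuousLinearMap.compL ℝ E2 E2 E2 (A.symm : E2 →L[ℝ] E2)) with hTL
  have hTLa : ∀ L, TL L = tr2 ((A.symm : E2 →L[ℝ] E2) ∘L L) := fun L => rfl
  have hRs : ContDiffAt ℝ ∞ R 0 := by
    refine (hX.sub hXh).sub ?_
    exact TL.contDiff.contDiffAt.comp 0 hdG
  have hRO : OB m R := by
    refine OB.sub hXX ?_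
    exact hG.clm_const TL
  have hstrict : HasStrictFDerivAt Fh (A : E2 →L[ℝ] E2) 0 := by
    rw [← hFh0]
    exact hFh.hasStrictFDerivAt (by simp)
  refine OB.of_comp hstrict hFhz ?_
  have hT : Tendsto Fh (𝓝 0) (𝓝 0) := by
    have := hFh.continuousAt.tendsto
    rwa [hFhz] at this
  have hT' : Tendsto F (𝓝 0) (𝓝 0) := by
    have := hF.continuousAt.tendsto
    rwa [hFz] at this
  have e1' : OB (m + 1) fun q => X' (F q) - X' (Fh q) :=
    OB.lip (hX'.of_le (by norm_cast)) hT' hT hGG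
  have hFh1 : OB 1 Fh := OB.of_differentiableAt (hFh.differentiableAt (by simp)) hFhz
  have hAF : OB 1 fun q => A.symm (Fh q) := hFh1.clm_const (A.symm : E2 →L[ℝ] E2)
  have hAF2 : OB 2 fun q => A.symm (Fh q) - q := by
    have h3 : OB 2 fun q => Fh q - A q := by
      have h4 := OB.C2 (E := E2) (m := 1) (g := Fh) (u := fun q => q) (v := fun _ => (0 : E2))
        (z := 0) (hFh.of_le (by norm_cast))
        (by
          simp only [sub_zero]
          exact OB.of_differentiableAt differentiableAt_id rfl)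
        (by
          simp only [sub_zero]
          exact OB.of_differentiableAt (differentiableAt_const _) rfl)
        (by
          simp only [sub_zero]
          exact OB.of_differentiableAt differentiableAt_id rfl)
      refine h4.congr (Eventually.of_forall fun q => ?_)
      simp [hFhz, hFh0]
    have h5 := h3.clm_const (A.symm : E2 →L[ℝ] E2)
    refine h5.congr (Eventually.of_forall fun q => ?_)
    simp
  have e2' : OB (m + 1) fun q => R (A.symm (Fh q)) - R q :=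
    OB.diff hRs hRO hm hAF (OB.of_differentiableAt differentiableAt_id rfl) hAF2
  have e3 : OB (m + 1) fun q => ((0 : ℝ) - (Real.log |(fderiv ℝ F q).det * c|
      - Real.log |(fderiv ℝ Fh q).det * c|
      - tr2 ((A.symm : E2 →L[ℝ] E2) ∘L fderiv ℝ (fun q => F q - Fh q) q)))
      - (X' (F q) - X' (Fh q)) - (R (A.symm (Fh q)) - R q) :=
    (OB.sub (OB.sub (show OB (m + 1) (fun _ : E2 => (0 : ℝ)) from isBigO_zero _ _) hld) e1').sub e2'
  refine e3.congr ?_
  filter_upwards [h1, h2] with q hq1 hq2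
  have hq1' : X' (F q) = X q - Real.log |(fderiv ℝ F q).det * c| := hq1
  have hq2' : Xh' (Fh q) = Xh q - Real.log |(fderiv ℝ Fh q).det * c| := hq2
  have hRq : R q = (X q - Xh q) - tr2 ((A.symm : E2 →L[ℝ] E2) ∘L
    fderiv ℝ (fun q => F q - Fh q) q) := rfl
  have hRAq : R (A.symm (Fh q)) = (X (A.symm (Fh q)) - Xh (A.symm (Fh q)))
      - tr2 ((A.symm : E2 →L[ℝ] E2) ∘L fderiv ℝ (fun q => F q - Fh q) (A.symm (Fh q))) := rfl
  rw [← hRAq, hq1', hq2', hRq]
  ring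

end Comp

end Vale.Agent.P207.N3.H394
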