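import Vale.Agent.P207.N3.H394.XComp
import Vale.Agent.P207.N3.H391.JAct3
import Vale.Agent.P207.N3.H395.J4

/-!
# P207, line N3: the transported densities of a smooth family of leaves
-/

open Set Filter Topology Metric MeasureTheory Asymptotics InnerProductSpace
open scoped ContDiff Gradient RealInnerProductSpace

noncomputable section

namespace Vale.Agent.P207.N3.H394

open Jet

/-- the jets of the leaf and of the density -/
abbrev ZZ (K : ℕ) : Type := (Ix (K + 1) → ℝ) × (Ix K → ℝ)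

lemma smooth_fderiv_snd {Z : Type*} [NormedAddCommGroup Z] [NormedSpace ℝ Z]
    {V : Type*} [NormedAddCommGroup V] [NormedSpace ℝ V] {F : Z × E2 → V} {w : Z × E2}
    (h : ContDiffAt ℝ ∞ F w) :
    ContDiffAt ℝ ∞ (fun w : Z × E2 => fderiv ℝ (fun q => F (w.1, q)) w.2) w := by
  have h1 : ContDiffAt ℝ ∞ (Function.uncurry fun (w : Z × E2) (q : E2) => F (w.1, q)) (w, w.2) := by
    have h2 : ContDiffAt ℝ ∞ (fun x : (Z × E2) × E2 => (x.1.1, x.2)) (w, w.2) := by fun_prop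
    exact ContDiffAt.comp (f := fun x : (Z × E2) × E2 => (x.1.1, x.2)) (w, w.2) (by simpa using h) h2
  exact ContDiffAt.fderiv (m := ∞) (n := ∞) h1 contDiffAt_snd (by norm_cast)

lemma Sf_smooth₂ (K : ℕ) : ContDiff ℝ ∞ fun w : ZZ K × E2 => Sf w.1.2 w.2 := by
  simp only [Sf_eq_sum]
  refine ContDiff.sum fun b _ => ?_
  have h1 : ContDiff ℝ ∞ fun w : ZZ K × E2 => w.1.2 b :=
    (contDiff_apply ℝ ℝ b).comp contDiff_fst.snd
  exact h1.mul ((mono_smooth _ _).comp contDiff_snd)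

variable (H : Half) (K : ℕ)

/-- the family of the transported leaves -/
def FZ (w : ZZ K × E2) : E2 := H.a (w.2, Pf (w.1.1, w.2))

/-- the density before the change of variables -/
def YZ (w : ZZ K × E2) : ℝ := Sf w.1.2 w.2 -
  Real.log |(fderiv ℝ (fun q => H.a (q, Pf (w.1.1, q))) w.2).det * (fderiv ℝ H.M (lab w.1.1)).det|

lemma Pf_smooth₂ : ContDiff ℝ ∞ fun w : ZZ K × E2 => Pf (w.1.1, w.2) :=
  (Pf_smooth (K + 1)).comp (contDiff_fst.fst.prodMk contDiff_snd)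

lemma Pf_zero₂ : (fun w : ZZ K × E2 => Pf (w.1.1, w.2)) 0 = 0 := Pf_zero_left 0

lemma FZ_smooth : ∀ᶠ w in 𝓝 (0 : ZZ K × E2), ContDiffAt ℝ ∞ (FZ H K) w := by
  have hU : IsOpen (ball (0 : E2) H.r ×ˢ ball (0 : E2) H.r) := isOpen_ball.prod isOpen_ball
  have hc : Continuous fun w : ZZ K × E2 => (w.2, Pf (w.1.1, w.2)) :=
    continuous_snd.prodMk (Pf_smooth₂ K).continuous
  have h0 : (fun w : ZZ K × E2 => (w.2, Pf (w.1.1, w.2))) 0
      ∈ ball (0 : E2) H.r ×ˢ ball (0 : E2) H.r := by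
    refine ⟨mem_ball_self H.r_pos, ?_⟩
    have := Pf_zero₂ K
    simp only at this ⊢
    rw [this]
    exact mem_ball_self H.r_pos
  filter_upwards [hc.continuousAt.eventually_mem (hU.mem_nhds h0)] with w hw
  have h1 : ContDiffAt ℝ ∞ (fun w : ZZ K × E2 => (w.2, Pf (w.1.1, w.2))) w :=
    (contDiff_snd.prodMk (Pf_smooth₂ K)).contDiffAt
  exact ContDiffAt.comp (g := H.a) (f := fun w : ZZ K × E2 => (w.2, Pf (w.1.1, w.2))) w
    (H.a_at hw) h1

/-- the derivative of the curve at the origin of the family -/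
lemma fderiv_zero_det :
    (fderiv ℝ (fun q => H.a (q, Pf (((0 : ZZ K × E2).1).1, q))) (0 : ZZ K × E2).2).det ≠ 0 := by
  obtain ⟨A0, hA0, -⟩ := H.exists_A (mem_ball_self H.r_pos)
  have h1 : fderiv ℝ (fun q => H.a (q, Pf ((0 : Ix (K + 1) → ℝ), q))) 0 = (A0 : E2 →L[ℝ] E2) := by
    refine curve_fderiv (a := H.a) (y := 0) (A := A0)
      (P := fun q => Pf ((0 : Ix (K + 1) → ℝ), q)) (H.a_at (H.mem0 (mem_ball_self H.r_pos)))
      hA0 (H.a_p (mem_ball_self H.r_pos)) ?_ (Pf_zero_left 0)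
    have : (fun q => Pf ((0 : Ix (K + 1) → ℝ), q)) = fun _ => (0 : E2) := by
      funext q
      exact Pf_zero_left q
    rw [this]
    exact contDiffAt_const
  change (fderiv ℝ (fun q => H.a (q, Pf ((0 : Ix (K + 1) → ℝ), q))) 0).det ≠ 0
  rw [h1]
  exact det_equiv_ne A0

lemma YZ_smooth : ∀ᶠ w in 𝓝 (0 : ZZ K × E2), ContDiffAt ℝ ∞ (YZ H K) w := by
  -- the two determinants
  have hlab : Continuous fun w : ZZ K × E2 => lab w.1.1 :=
    (lab_smooth (K + 1)).continuous.comp (continuous_fst.comp continuous_fst)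
  have hlab0 : (fun w : ZZ K × E2 => lab w.1.1) 0 ∈ ball (0 : E2) H.r := by
    change lab (0 : Ix (K + 1) → ℝ) ∈ _
    rw [lab_zero]
    exact mem_ball_self H.r_pos
  have e1 := hlab.continuousAt.eventually_mem (isOpen_ball.mem_nhds hlab0)
  have hsm : ∀ᶠ w in 𝓝 (0 : ZZ K × E2), ContDiffAt ℝ ∞ (fun w : ZZ K × E2 =>
      (fderiv ℝ (fun q => H.a (q, Pf (w.1.1, q))) w.2).det
        * (fderiv ℝ H.M (lab w.1.1)).det) w := by
    filter_upwards [FZ_smooth H K, e1] with w hw1 hw2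
    have h1 : ContDiffAt ℝ ∞ (fun w : ZZ K × E2 =>
        fderiv ℝ (fun q => H.a (q, Pf (w.1.1, q))) w.2) w := smooth_fderiv_snd hw1
    have h2 : ContDiffAt ℝ ∞ (fderiv ℝ H.M) (lab w.1.1) :=
      (H.M_smooth hw2).fderiv_right (m := ∞) (by norm_cast)
    have h3 : ContDiffAt ℝ ∞ (fun w : ZZ K × E2 => lab w.1.1) w :=
      ((lab_smooth (K + 1)).comp (contDiff_fst.fst)).contDiffAt
    have h4 : ContDiffAt ℝ ∞ (fun w : ZZ K × E2 => fderiv ℝ H.M (lab w.1.1)) w :=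
      ContDiffAt.comp (g := fderiv ℝ H.M) (f := fun w : ZZ K × E2 => lab w.1.1) w h2 h3
    exact (contDiff_det2.contDiffAt.comp w h1).mul (contDiff_det2.contDiffAt.comp w h4)
  have hne : ∀ᶠ w in 𝓝 (0 : ZZ K × E2), (fderiv ℝ (fun q => H.a (q, Pf (w.1.1, q))) w.2).det
        * (fderiv ℝ H.M (lab w.1.1)).det ≠ 0 := by
    refine (hsm.self_of_nhds.continuousAt).eventually_ne ?_
    refine mul_ne_zero (fderiv_zero_det H K) ?_
    exact H395.det_M_ne H hlab0
  filter_upwards [hsm, hne] with w h1 h2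
  unfold YZ
  refine ((Sf_smooth₂ K).contDiffAt).sub ?_
  have h3 : (fun w : ZZ K × E2 => Real.log
      |(fderiv ℝ (fun q => H.a (q, Pf (w.1.1, q))) w.2).det * (fderiv ℝ H.M (lab w.1.1)).det|)
      = fun w => Real.log
      ((fderiv ℝ (fun q => H.a (q, Pf (w.1.1, q))) w.2).det * (fderiv ℝ H.M (lab w.1.1)).det) := by
    funext w
    exact Real.log_abs _
  rw [h3]
  exact h1.log h2

/-- the density vanishes on the zero leaf -/
lemma YZ_zero {q : E2} (hq : q ∈ ball (0 : E2) H.ρ) : YZ H K (0, q) = 0 := by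
  have h0r : (0 : E2) ∈ ball (0 : E2) H.r := mem_ball_self H.r_pos
  have h0ρ : (0 : E2) ∈ ball (0 : E2) H.ρ := mem_ball_self H.ρ_pos
  have hqr : q ∈ ball (0 : E2) H.r := ball_subset_ball H.ρ_le hq
  have hgrad : ∀ q' ∈ ball (0 : E2) H.r, ∇ (H.S 0) q' = 0 := by
    intro q' hq'
    have h1 : H.S 0 =ᶠ[𝓝 q'] fun _ => (0 : ℝ) := by
      filter_upwards [isOpen_ball.mem_nhds hq'] with z hz
      exact H.S_zero z hz
    have h2 : gradient (H.S 0) q' = gradient (fun _ : E2 => (0 : ℝ)) q' := by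
      unfold gradient
      rw [h1.fderiv_eq]
    rw [h2, gradient_fun_const]
  have h1 := H.X_inv 0 h0ρ q hq
  rw [H.M_zero, hgrad q hqr] at h1
  have h2 : H.a (q, 0) ∈ ball (0 : E2) H.r := by
    have := (H.S_maps 0 h0ρ q hq).2
    rwa [hgrad q hqr] at this
  rw [H.X_zero _ h2, H.X_zero _ hqr] at h1
  have h3 : fderiv ℝ (fun q => H.a (q, ∇ (H.S 0) q)) q
      = fderiv ℝ (fun q => H.a (q, Pf ((0 : Ix (K + 1) → ℝ), q))) q := by
    refine Filter.EventuallyEq.fderiv_eq ?_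
    filter_upwards [isOpen_ball.mem_nhds hqr] with z hz
    rw [hgrad z hz, Pf_zero_left]
  rw [h3] at h1
  have h4 : Sf (0 : Ix K → ℝ) q = 0 := by
    rw [Sf_eq_sum]
    simp
  unfold YZ
  change Sf (0 : Ix K → ℝ) q - Real.log |(fderiv ℝ
    (fun q => H.a (q, Pf ((0 : Ix (K + 1) → ℝ), q))) q).det
    * (fderiv ℝ H.M (lab (0 : Ix (K + 1) → ℝ))).det| = 0
  rw [h4, lab_zero]
  exact h1.symm

/-- **the family of the transported densities** -/
theorem exists_GX : ∃ G : ZZ K × E2 → ℝ, (∀ᶠ w in 𝓝 (0 : ZZ K × E2), ContDiffAt ℝ ∞ G w) ∧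
    (∀ᶠ w in 𝓝 (0 : ZZ K × E2), G (w.1, H.a (w.2, Pf (w.1.1, w.2))) = YZ H K w) ∧
    (∀ᶠ q in 𝓝 (0 : E2), G (0, q) = 0) := by
  obtain ⟨A0, hA0, -⟩ := H.exists_A (mem_ball_self H.r_pos)
  obtain ⟨Th, hTs, hTe⟩ := fam_exists (Z := ZZ K) (b := Prod.fst)
    (P := fun w : ZZ K × E2 => Pf (w.1.1, w.2)) H.r_pos H.a_smooth
    contDiff_fst.contDiffOn H.a_zero hA0 (Pf_smooth₂ K) (Pf_zero₂ K)
  have hT0 : Th 0 = 0 := by
    have h1 := hTe.self_of_nhds
    have h2 := Pf_zero₂ K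
    simp only at h1 h2
    rw [h2] at h1
    have h3 : H.a ((0 : ZZ K × E2).2, 0) = 0 := H.a_zero 0 (mem_ball_self H.r_pos)
    rw [h3] at h1
    exact h1
  have hTc : ContinuousAt Th 0 := hTs.self_of_nhds.continuousAt
  have hκ : ContinuousAt (fun w : ZZ K × E2 => (w.1, Th w)) 0 := continuousAt_fst.prodMk hTc
  have hκ0 : (fun w : ZZ K × E2 => (w.1, Th w)) 0 = 0 := by
    simp only [hT0]
    rfl
  have hκt : Tendsto (fun w : ZZ K × E2 => (w.1, Th w)) (𝓝 0) (𝓝 0) := by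
    have h5 := hκ.tendsto
    rw [hT0] at h5
    exact h5
  refine ⟨fun w => YZ H K (w.1, Th w), ?_, ?_, ?_⟩
  · filter_upwards [hTs, hκt.eventually (YZ_smooth H K)] with w h1 h2
    exact ContDiffAt.comp (g := YZ H K) (f := fun w : ZZ K × E2 => (w.1, Th w)) w h2
      (contDiffAt_fst.prodMk h1)
  · filter_upwards [hTe] with w hw
    change YZ H K (w.1, Th (w.1, H.a (w.2, Pf (w.1.1, w.2)))) = YZ H K w
    rw [hw]
  · have h1 : Tendsto (fun q : E2 => ((0 : ZZ K), q)) (𝓝 0) (𝓝 0) := by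
      have : Continuous fun q : E2 => ((0 : ZZ K), q) := by fun_prop
      exact this.tendsto 0
    have h2 : Tendsto (fun q : E2 => Th ((0 : ZZ K), q)) (𝓝 0) (𝓝 0) := by
      have := hTc.tendsto.comp h1
      rwa [hT0] at this
    filter_upwards [h2.eventually (ball_mem_nhds (0 : E2) H.ρ_pos)] with q hq
    exact YZ_zero H K hq

end Vale.Agent.P207.N3.H394
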